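import Vale.Agent.Helper3.StarW
import Vale.Agent.Helper13.StarW

/-!
# P254 (W_n): the merging inequality `starW`, unconditional

`starW_of_G` (pure algebra, `Vale.Agent.Helper3.StarW`) applied to the hyperbolic inequality
`Vale.Agent.Helper13.StarW.G_nonneg`.
-/

namespace Vale.Agent.Helper3.StarW

/-- The merging inequality (starW): for `0 < c < 1`, background variables `a k ∈ [√c, 1]`
(`k ∈ R`, `R` possibly empty) and `p = c * ∏ a k`. -/
theorem starW {ι : Type*} (R : Finset ι) (a : ι → ℝ) (c p U0 U1 L : ℝ) (hc0 : 0 < c) (hc1 : c < 1)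
    (ha : ∀ k ∈ R, c ≤ a k ^ 2 ∧ 0 < a k ∧ a k ≤ 1) (hp : p = c * ∏ k ∈ R, a k)
    (hU0 : U0 = ∑ k ∈ R, (1 - a k) / (1 - p * a k ^ 2))
    (hU1 : U1 = ∑ k ∈ R, a k * (1 - a k) / (1 - p * a k ^ 2))
    (hL : L = ∑ k ∈ R, (1 - a k) ^ 2 / (1 - p * a k ^ 2)) :
    4 * (c - p) ≤ (1 - p * c) * (U0 + p * U1) + (1 + c) * p * (4 * L + U0 ^ 2 - p * U1 ^ 2) :=
  starW_of_G
    (fun R v lam mu X Z hmu hv hlam hX hZ =>
      Vale.Agent.Helper13.StarW.G_nonneg R v lam mu X Z hmu hv hlam hX hZ)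
    R a c p U0 U1 L hc0 hc1 ha hp hU0 hU1 hL

end Vale.Agent.Helper3.StarW
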