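import Mathlib

/-!
P064, all-graphs extension (helper3, step P6): elementary counting facts.

* `prod_descFactorial_le_pow`: a product of falling factorials `n (n-1) ... (n - v_i + 1)` is at
  most `n ^ (∑ v_i)`.
* `card_le_two_mul_ncard_edgeSet`: a finite graph without isolated vertices has at most twice as
  many vertices as edges.
* `sum_card_supp`, `sum_ncard_edgeSet_induce_supp` (step P5): the vertices and the edges of the
  connected components add up to those of the graph.
-/

namespace Vale.Agent.Helper3.KKAll

open Finset SimpleGraph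

/-- A product of falling factorials is at most the corresponding power. -/
theorem prod_descFactorial_le_pow {ι : Type*} (s : Finset ι) (n : ℕ) (v : ι → ℕ) :
    ∏ i ∈ s, n.descFactorial (v i) ≤ n ^ (∑ i ∈ s, v i) := by
  rw [← Finset.prod_pow_eq_pow_sum]
  exact Finset.prod_le_prod' fun i _ => Nat.descFactorial_le_pow n (v i)

/-- Real-valued version of `prod_descFactorial_le_pow`. -/
theorem prod_descFactorial_le_pow_real {ι : Type*} (s : Finset ι) (n : ℕ) (v : ι → ℕ) :
    ∏ i ∈ s, (n.descFactorial (v i) : ℝ) ≤ (n : ℝ) ^ (∑ i ∈ s, v i) := by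
  have h := prod_descFactorial_le_pow s n v
  have h' : ((∏ i ∈ s, n.descFactorial (v i) : ℕ) : ℝ) ≤ ((n ^ (∑ i ∈ s, v i) : ℕ) : ℝ) := by
    exact_mod_cast h
  simpa using h'

/-- A finite graph without isolated vertices has at most twice as many vertices as edges. -/
theorem card_le_two_mul_ncard_edgeSet {W : Type*} [Fintype W] (F : SimpleGraph W)
    (h : ∀ a, ∃ b, F.Adj a b) : Fintype.card W ≤ 2 * F.edgeSet.ncard := by
  classical
  have hdeg : ∀ a, 1 ≤ F.degree a := by
    intro a
    obtain ⟨b, hb⟩ := h a
    rw [Nat.one_le_iff_ne_zero, ← Nat.pos_iff_ne_zero, SimpleGraph.degree_pos_iff_exists_adj]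
    exact ⟨b, hb⟩
  have h1 : Fintype.card W ≤ ∑ a, F.degree a := by
    calc Fintype.card W = ∑ _a : W, 1 := by simp
      _ ≤ ∑ a, F.degree a := Finset.sum_le_sum fun a _ => hdeg a
  have h2 : ∑ a, F.degree a = 2 * F.edgeFinset.card := F.sum_degrees_eq_twice_card_edges
  have h3 : F.edgeSet.ncard = F.edgeFinset.card := by
    rw [← SimpleGraph.coe_edgeFinset, Set.ncard_coe_finset]
  omega

/-- The vertex sets of the connected components partition the vertex set. -/
theorem sum_card_supp {W : Type*} [Fintype W] (F : SimpleGraph W)
    [Fintype F.ConnectedComponent] :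
    ∑ C : F.ConnectedComponent, Nat.card C.supp = Fintype.card W := by
  classical
  have h1 : ∀ C : F.ConnectedComponent,
      Nat.card C.supp = Fintype.card {x : W // F.connectedComponentMk x = C} := by
    intro C
    rw [Nat.card_eq_fintype_card]
    exact Fintype.card_congr (Equiv.refl _)
  rw [Finset.sum_congr rfl fun C _ => h1 C, ← Fintype.card_sigma]
  exact Fintype.card_congr (Equiv.sigmaFiberEquiv F.connectedComponentMk)

/-- Handshake lemma with `Set.ncard`. -/
theorem two_mul_ncard_edgeSet {V : Type*} [Fintype V] (G : SimpleGraph V) [DecidableRel G.Adj] :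
    2 * G.edgeSet.ncard = ∑ a, G.degree a := by
  rw [G.sum_degrees_eq_twice_card_edges, ← SimpleGraph.coe_edgeFinset, Set.ncard_coe_finset]

/-- The edges of the connected components add up to the edges of the graph. -/
theorem sum_ncard_edgeSet_induce_supp {W : Type*} [Fintype W] (F : SimpleGraph W)
    [Fintype F.ConnectedComponent] :
    ∑ C : F.ConnectedComponent, (F.induce C.supp).edgeSet.ncard = F.edgeSet.ncard := by
  classical
  have hdeg : ∀ (C : F.ConnectedComponent) (a : C.supp),
      (F.induce C.supp).degree a = F.degree a.1 := by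
    intro C a
    apply degree_induce_of_neighborSet_subset
    intro b hb
    have hb' : F.Adj a.1 b := hb
    exact (C.mem_supp_congr_adj hb').mp a.2
  have hC : ∀ C : F.ConnectedComponent, 2 * (F.induce C.supp).edgeSet.ncard
      = ∑ a ∈ Finset.univ.filter (fun a => F.connectedComponentMk a = C), F.degree a := by
    intro C
    rw [two_mul_ncard_edgeSet (F.induce C.supp)]
    rw [Finset.sum_congr rfl fun a _ => hdeg C a]
    symm
    exact Finset.sum_subtype (Finset.univ.filter (fun a => F.connectedComponentMk a = C))
      (fun x => by simp [ConnectedComponent.mem_supp_iff]) (fun a => F.degree a)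
  have h2 : 2 * ∑ C : F.ConnectedComponent, (F.induce C.supp).edgeSet.ncard
      = 2 * F.edgeSet.ncard := by
    rw [Finset.mul_sum, two_mul_ncard_edgeSet F, Finset.sum_congr rfl fun C _ => hC C]
    exact Finset.sum_fiberwise Finset.univ F.connectedComponentMk (fun a => F.degree a)
  omega

end Vale.Agent.Helper3.KKAll
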