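import Vale.Agent.Results.P063.HypergraphCliqueWidth

/-!
# P063: threshold width and the size of minimal members, for arbitrary increasing families

Plain form of the two general lemmas `mu_mul_ge` and `width_ge` of the hand-in
`HypergraphCliqueWidth`: the probability of the family, the thresholds and the width are
written out.
-/

namespace Vale.Agent.Helper3.CertificateWidth

open Vale.Agent.Results.P063.HypergraphCliqueWidth

open Classical in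
theorem certificate_width {E : Type*} [Fintype E] [DecidableEq E] (P : Set (Finset E))
    (hinc : ∀ H H' : Finset E, H ∈ P → H ⊆ H' → H' ∈ P)
    (hfull : (Finset.univ : Finset E) ∈ P)
    (M : ℕ) (hM0 : 0 < M) (hM : ∀ H ∈ P, ∃ K ∈ P, K ⊆ H ∧ K.card ≤ M) :
    let μ : ℝ → ℝ := fun p =>
      ∑ H : Finset E, if H ∈ P then p ^ H.card * (1 - p) ^ (Fintype.card E - H.card) else 0
    (∀ p t : ℝ, 0 ≤ p → p ≤ 1 → 0 ≤ t → t ≤ 1 → t ^ M * μ p ≤ μ (p * t)) ∧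
    (∀ ε q0 : ℝ, 0 < ε → ε < 1 / 2 → 0 < q0 → (∀ p : ℝ, 0 ≤ p → p ≤ q0 → μ p < ε) →
      q0 * (Real.log ((1 - ε) / ε) / M) ≤
        sInf {p : ℝ | 0 ≤ p ∧ p ≤ 1 ∧ 1 - ε ≤ μ p} - sInf {p : ℝ | 0 ≤ p ∧ p ≤ 1 ∧ ε ≤ μ p}) := by
  intro μ
  have hμ : ∀ p : ℝ, μ p = mu p P := by
    intro p
    show (∑ H : Finset E,
        if H ∈ P then p ^ H.card * (1 - p) ^ (Fintype.card E - H.card) else 0) = mu p P
    unfold mu wt
    apply Finset.sum_congr rfl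
    intro H _
    by_cases hH : H ∈ P
    · rw [if_pos hH]
    · rw [if_neg hH]
  refine ⟨?_, ?_⟩
  · intro p t hp0 hp1 ht0 ht1
    rw [hμ, hμ]
    exact mu_mul_ge hinc hM hp0 hp1 ht0 ht1
  · intro ε q0 hε0 hε1 hq0 hlow
    have hlow' : ∀ p : ℝ, 0 ≤ p → p ≤ q0 → mu p P < ε := by
      intro p hp0 hpq
      rw [← hμ]; exact hlow p hp0 hpq
    have hw := width_ge hinc hM0 hM hfull hε0 hε1 hq0 hlow'
    have e1 : {p : ℝ | 0 ≤ p ∧ p ≤ 1 ∧ 1 - ε ≤ μ p} = {p : ℝ | 0 ≤ p ∧ p ≤ 1 ∧ 1 - ε ≤ mu p P} := by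
      ext p; simp only [Set.mem_ofPred_eq, hμ]
    have e2 : {p : ℝ | 0 ≤ p ∧ p ≤ 1 ∧ ε ≤ μ p} = {p : ℝ | 0 ≤ p ∧ p ≤ 1 ∧ ε ≤ mu p P} := by
      ext p; simp only [Set.mem_ofPred_eq, hμ]
    rw [e1, e2]
    exact hw

end Vale.Agent.Helper3.CertificateWidth
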