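import Vale.Agent.Results.P063.HypergraphCliqueWidth

/-!
Auxiliary lemmas for the hand-in `P063.CliqueWindow` (plain form of `P063.HypergraphCliqueWidth`).
-/

namespace Vale.Agent.Helper3.CliqueWindowAux

open Finset Vale.Agent.Results.P063.HypergraphCliqueWidth

/-- The proof of `HypergraphCliqueWidth.asymptotic`, with the clique size made explicit. -/
theorem asymptotic_clique (r : ℕ) (hr : 2 ≤ r) (ε : ℝ) (hε0 : 0 < ε) (hε1 : ε < 1 / 2) :
    ∃ c : ℝ, 0 < c ∧ ∃ n0 : ℕ, ∀ n : ℕ, n0 ≤ n → ∃ m : ℕ, r ≤ m ∧ m ≤ n ∧ 2 ≤ n ∧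
      c * Real.log n ^ (-(r : ℝ) / ((r : ℝ) - 1)) ≤ width ε (cliqueProp n r m) := by
  obtain ⟨Le, hLe⟩ := pow_unbounded_of_one_lt (1 / ε) (by norm_num : (1 : ℝ) < 2)
  set F := (r + 1).factorial with hF
  set D := 2 ^ (r - 1) * F with hD
  obtain ⟨T, hT⟩ := exists_T D (1 + Le) r
  set ρ : ℝ := (r : ℝ) / ((r : ℝ) - 1) with hρ
  have hr1 : (0 : ℝ) < (r : ℝ) - 1 := by
    have : (2 : ℝ) ≤ r := by exact_mod_cast hr
    linarith
  have hρpos : 0 < ρ := div_pos (by linarith) hr1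
  set C1 : ℝ := (D : ℝ) * (4 + 2 * Le) with hC1
  have hFpos : 0 < F := Nat.factorial_pos _
  have hDpos : 0 < D := by positivity
  have hC1pos : 0 < C1 := by positivity
  set lam := Real.log ((1 - ε) / ε) with hlam
  have hlampos : 0 < lam := Real.log_pos (by rw [one_lt_div hε0]; linarith)
  have hden : 0 < 2 * (((r : ℝ) + 1) ^ r * C1 ^ ρ) := by positivity
  refine ⟨lam / (2 * (((r : ℝ) + 1) ^ r * C1 ^ ρ)), div_pos hlampos hden, max (2 ^ T) 2, ?_⟩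
  intro n hn
  have hn2 : 2 ≤ n := le_trans (le_max_right _ _) hn
  have hnT : 2 ^ T ≤ n := le_trans (le_max_left _ _) hn
  set k := Nat.log 2 n with hk
  have hkT : T ≤ k := by
    have := Nat.log_mono_right (b := 2) hnT
    rwa [Nat.log_pow (by norm_num)] at this
  have h2k : 2 ^ k ≤ n := Nat.pow_log_le_self 2 (by omega)
  have hnlt : n < 2 ^ (k + 1) := Nat.lt_pow_succ_log_self (by norm_num) n
  set A := F * (k + 1 + Le) with hA
  have hApos : 1 ≤ A := Nat.one_le_iff_ne_zero.2 (by positivity)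
  have hex : ∃ s, 1 ≤ s ∧ A ≤ s ^ (r - 1) := ⟨A, hApos, Nat.le_self_pow (by omega) A⟩
  classical
  obtain ⟨hs1, hsA⟩ := Nat.find_spec hex
  set s := Nat.find hex with hs
  have hsup : s ^ (r - 1) ≤ 2 ^ (r - 1) * A := by
    rcases Nat.lt_or_ge s 2 with h | h
    · have : s = 1 := by omega
      rw [this, one_pow]
      exact Nat.one_le_iff_ne_zero.2 (by positivity)
    · have hmin := Nat.find_min hex (m := s - 1) (by omega)
      have hlt : (s - 1) ^ (r - 1) < A := by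
        by_contra hcon
        push Not at hcon
        exact hmin ⟨by omega, hcon⟩
      calc s ^ (r - 1) ≤ (2 * (s - 1)) ^ (r - 1) := Nat.pow_le_pow_left (by omega) _
        _ = 2 ^ (r - 1) * (s - 1) ^ (r - 1) := by rw [mul_pow]
        _ ≤ 2 ^ (r - 1) * A := Nat.mul_le_mul_left _ hlt.le
  -- the clique size
  have hrm : r ≤ s + r := by omega
  have hmn : s + r ≤ n := by
    have h1 : s ≤ s ^ (r - 1) := Nat.le_self_pow (by omega) s
    have h2 : 2 ^ (r - 1) * A = D * (k + (1 + Le)) := by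
      rw [hA, hD]; ring
    have h3 := lin_le_two_pow D (1 + Le) r T hT (by omega) k hkT
    calc s + r ≤ D * (k + (1 + Le)) + r := by
          have := h1.trans (hsup.trans h2.le)
          omega
      _ ≤ 2 ^ k := h3
      _ ≤ n := h2k
  have hchoose : (k + 1) * (s + r) + Le ≤ (s + r).choose r :=
    choose_ge_lin hr hs1 hsA
  have hcount : (n.choose (s + r) : ℝ) < ε * 2 ^ ((s + r).choose r) :=
    count_lt hε0 hnlt hchoose hLe
  have hw := clique_width hrm hmn hε0 hε1 hcount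
  refine ⟨s + r, hrm, hmn, hn2, ?_⟩
  refine le_trans ?_ hw
  -- numeric comparison
  obtain ⟨hk2, h12⟩ := natLog_le hn2
  have hlogpos : 0 < Real.log n := by linarith
  have hchoose_le : ((s + r).choose r : ℝ) ≤ ((r : ℝ) + 1) ^ r * (s : ℝ) ^ r := by
    have h1 : (s + r).choose r ≤ (s + r) ^ r := Nat.choose_le_pow _ _
    have h2 : s + r ≤ (r + 1) * s := by nlinarith
    have h3 : (s + r) ^ r ≤ ((r + 1) * s) ^ r := Nat.pow_le_pow_left h2 r
    have h4 : (s + r).choose r ≤ ((r + 1) * s) ^ r := h1.trans h3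
    have h5 : (((s + r).choose r : ℕ) : ℝ) ≤ (((r + 1) * s) ^ r : ℕ) := by exact_mod_cast h4
    rw [← mul_pow]
    push_cast at h5
    exact h5
  have hs_pow : (s : ℝ) ^ (r - 1) ≤ C1 * Real.log n := by
    have h1 : ((s ^ (r - 1) : ℕ) : ℝ) ≤ ((2 ^ (r - 1) * A : ℕ) : ℝ) := by exact_mod_cast hsup
    have h2 : ((2 ^ (r - 1) * A : ℕ) : ℝ) = (D : ℝ) * ((k : ℝ) + 1 + Le) := by
      rw [hA, hD]; push_cast; ring
    have h3 : (k : ℝ) + 1 + Le ≤ (4 + 2 * (Le : ℝ)) * Real.log n := by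
      have hLe0 : (0 : ℝ) ≤ Le := Nat.cast_nonneg _
      nlinarith
    have h4 : (D : ℝ) * ((k : ℝ) + 1 + Le) ≤ (D : ℝ) * ((4 + 2 * (Le : ℝ)) * Real.log n) :=
      mul_le_mul_of_nonneg_left h3 (Nat.cast_nonneg _)
    rw [h2] at h1
    push_cast at h1
    rw [hC1]
    calc (s : ℝ) ^ (r - 1) ≤ (D : ℝ) * ((k : ℝ) + 1 + Le) := h1
      _ ≤ _ := h4
      _ = _ := by ring
  have hs_r : (s : ℝ) ^ r ≤ C1 ^ ρ * Real.log n ^ ρ := by
    rw [pow_eq_rpow_pow (s : ℝ) (Nat.cast_nonneg _) hr, ← Real.mul_rpow hC1pos.le hlogpos.le]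
    exact Real.rpow_le_rpow (by positivity) hs_pow hρpos.le
  have hMpos : (0 : ℝ) < ((s + r).choose r : ℝ) := by
    exact_mod_cast Nat.choose_pos hrm
  have hexp : -(r : ℝ) / ((r : ℝ) - 1) = -ρ := by rw [hρ, neg_div]
  rw [hexp, Real.rpow_neg hlogpos.le]
  have hlogρ : 0 < Real.log n ^ ρ := Real.rpow_pos_of_pos hlogpos _
  have hC1ρ : 0 < C1 ^ ρ := Real.rpow_pos_of_pos hC1pos _
  have hbound : 2 * ((s + r).choose r : ℝ) ≤
      2 * (((r : ℝ) + 1) ^ r * C1 ^ ρ) * Real.log n ^ ρ := by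
    have : ((r : ℝ) + 1) ^ r * (s : ℝ) ^ r ≤ ((r : ℝ) + 1) ^ r * (C1 ^ ρ * Real.log n ^ ρ) :=
      mul_le_mul_of_nonneg_left hs_r (by positivity)
    nlinarith
  rw [div_mul_eq_mul_div, ← div_eq_mul_inv, div_div]
  exact div_le_div_of_nonneg_left hlampos.le (by positivity) (le_of_le_of_eq hbound (by ring))

/-- A threshold width of at least `w > 0` gives two explicit points of the window. -/
theorem window_of_width {E : Type*} [Fintype E] [DecidableEq E] {P : Set (Finset E)}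
    (hfull : (Finset.univ : Finset E) ∈ P) {ε w : ℝ} (hε0 : 0 < ε) (hε1 : ε < 1 / 2)
    (hw0 : 0 < w) (hw : w ≤ width ε P) :
    ∃ p1 p2 : ℝ, 0 ≤ p1 ∧ p2 ≤ 1 ∧ w / 2 ≤ p2 - p1 ∧ ε ≤ mu p1 P ∧
      ∀ p : ℝ, 0 ≤ p → p < p2 → mu p P < 1 - ε := by
  have hmu1 : mu 1 P = 1 := mu_one hfull
  have hmem1 : (1 : ℝ) ∈ {p : ℝ | 0 ≤ p ∧ p ≤ 1 ∧ ε ≤ mu p P} :=
    ⟨zero_le_one, le_rfl, by rw [hmu1]; linarith⟩
  have hmem2 : (1 : ℝ) ∈ {p : ℝ | 0 ≤ p ∧ p ≤ 1 ∧ 1 - ε ≤ mu p P} :=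
    ⟨zero_le_one, le_rfl, by rw [hmu1]; linarith⟩
  have hbdd2 : BddBelow {p : ℝ | 0 ≤ p ∧ p ≤ 1 ∧ 1 - ε ≤ mu p P} := ⟨0, fun p hp => hp.1⟩
  have hlt : sInf {p : ℝ | 0 ≤ p ∧ p ≤ 1 ∧ ε ≤ mu p P} <
      sInf {p : ℝ | 0 ≤ p ∧ p ≤ 1 ∧ ε ≤ mu p P} + w / 2 := by linarith
  obtain ⟨p1, hp1mem, hp1lt⟩ := exists_lt_of_csInf_lt ⟨1, hmem1⟩ hlt
  refine ⟨p1, pThr (1 - ε) P, hp1mem.1, csInf_le hbdd2 hmem2, ?_, hp1mem.2.2, ?_⟩
  · have hw' : w ≤ pThr (1 - ε) P - pThr ε P := hw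
    have hp : pThr ε P = sInf {p : ℝ | 0 ≤ p ∧ p ≤ 1 ∧ ε ≤ mu p P} := rfl
    rw [hp] at hw'
    linarith
  · intro p hp0 hplt
    by_contra hcon
    push Not at hcon
    have hp1 : p ≤ 1 := hplt.le.trans (csInf_le hbdd2 hmem2)
    have hle : pThr (1 - ε) P ≤ p := csInf_le hbdd2 ⟨hp0, hp1, hcon⟩
    linarith

open Classical in
theorem clique_window (r : ℕ) (hr : 2 ≤ r) (ε : ℝ) (hε0 : 0 < ε) (hε1 : ε < 1 / 2) :
    ∃ c : ℝ, 0 < c ∧ ∃ n0 : ℕ, ∀ n : ℕ, n0 ≤ n → ∃ m : ℕ, r ≤ m ∧ m ≤ n ∧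
      let μ : ℝ → ℝ := fun p =>
        ∑ H : Finset {e : Finset (Fin n) // e.card = r},
          if (∃ Q : Finset (Fin n), Q.card = m ∧
              ∀ e : {e : Finset (Fin n) // e.card = r}, e.1 ⊆ Q → e ∈ H)
          then p ^ H.card *
            (1 - p) ^ (Fintype.card {e : Finset (Fin n) // e.card = r} - H.card)
          else 0
      ∃ p1 p2 : ℝ, 0 ≤ p1 ∧ p2 ≤ 1 ∧
        c * Real.log n ^ (-(r : ℝ) / ((r : ℝ) - 1)) ≤ p2 - p1 ∧
        ε ≤ μ p1 ∧ ∀ p : ℝ, 0 ≤ p → p < p2 → μ p < 1 - ε := by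
  obtain ⟨c, hc, n0, h⟩ := asymptotic_clique r hr ε hε0 hε1
  refine ⟨c / 2, by positivity, n0, fun n hn => ?_⟩
  obtain ⟨m, hrm, hmn, hn2, hw⟩ := h n hn
  refine ⟨m, hrm, hmn, ?_⟩
  intro μ
  have hlog : 0 < Real.log n := Real.log_pos (by exact_mod_cast hn2)
  have hw0 : 0 < c * Real.log n ^ (-(r : ℝ) / ((r : ℝ) - 1)) :=
    mul_pos hc (Real.rpow_pos_of_pos hlog _)
  obtain ⟨p1, p2, h1, h2, h3, h4, h5⟩ :=
    window_of_width (univ_mem_cliqueProp (r := r) hmn) hε0 hε1 hw0 hw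
  have hμ : ∀ p : ℝ, μ p = mu p (cliqueProp n r m) := by
    intro p
    show (∑ H : Finset {e : Finset (Fin n) // e.card = r},
          if (∃ Q : Finset (Fin n), Q.card = m ∧
              ∀ e : {e : Finset (Fin n) // e.card = r}, e.1 ⊆ Q → e ∈ H)
          then p ^ H.card *
            (1 - p) ^ (Fintype.card {e : Finset (Fin n) // e.card = r} - H.card)
          else 0) = mu p (cliqueProp n r m)
    unfold mu wt
    apply Finset.sum_congr rfl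
    intro H _
    by_cases hH : H ∈ cliqueProp n r m
    · rw [if_pos hH]
      exact if_pos hH
    · rw [if_neg hH]
      exact if_neg hH
  refine ⟨p1, p2, h1, h2, ?_, ?_, ?_⟩
  · linarith
  · rw [hμ]; exact h4
  · intro p hp0 hp2
    rw [hμ]; exact h5 p hp0 hp2

end Vale.Agent.Helper3.CliqueWindowAux
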