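import Vale.Agent.Results.P061.CompleteThinness

/-!
# P061: the exact optimal thinness of complete multigraphs

For `n ≥ 2` the Hamiltonian path is an optimal thin spanning tree of the complete multigraph
on `n` vertices with `m` parallel edges between any two vertices: its thinness is
`(n - 1) / (m ⌊n² / 4⌋)`, and no spanning tree does better.
-/

namespace Vale.Agent.Helper3.CompleteExact

open Vale.Agent.Results.P061.CompleteThinness

/-- A cut of the path graph contains at most `n - 1` path edges. -/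
lemma pathGraph_cut_le_pred (n : ℕ) (S : Finset (Fin n)) :
    treeCut (SimpleGraph.pathGraph n) S ≤ n - 1 := by
  classical
  unfold treeCut
  have hinj : Set.InjOn (fun p : Fin n × Fin n => min p.1.val p.2.val)
      {p : Fin n × Fin n | p.1 ∈ S ∧ p.2 ∉ S ∧ (SimpleGraph.pathGraph n).Adj p.1 p.2} := by
    rintro ⟨a, b⟩ ⟨ha, hb, hab⟩ ⟨c, d⟩ ⟨hc, hd, hcd⟩ h
    simp only [SimpleGraph.pathGraph_adj] at hab hcd
    simp only at h ha hb hc hd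
    have hac : a.val = c.val ∧ b.val = d.val ∨ a.val = d.val ∧ b.val = c.val := by omega
    rcases hac with ⟨h1, h2⟩ | ⟨h1, h2⟩
    · have e1 : a = c := Fin.ext h1
      have e2 : b = d := Fin.ext h2
      rw [e1, e2]
    · exfalso
      have e1 : a = d := Fin.ext h1
      rw [e1] at ha
      exact hd ha
  have hmaps : Set.MapsTo (fun p : Fin n × Fin n => min p.1.val p.2.val)
      {p : Fin n × Fin n | p.1 ∈ S ∧ p.2 ∉ S ∧ (SimpleGraph.pathGraph n).Adj p.1 p.2}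
      ((Finset.range (n - 1) : Finset ℕ) : Set ℕ) := by
    rintro ⟨a, b⟩ ⟨-, -, hab⟩
    simp only [SimpleGraph.pathGraph_adj] at hab
    have ha := a.isLt
    have hb := b.isLt
    simp only [Finset.coe_range, Set.mem_Iio]
    omega
  have := Set.ncard_le_ncard_of_injOn _ hmaps hinj (Finset.finite_toSet _)
  rw [Set.ncard_coe_finset, Finset.card_range] at this
  exact this

/-- The arithmetic behind the optimality of the path. -/
lemma key (s c t : ℕ) (hs : 1 ≤ s) (hc : 1 ≤ c) (h1 : t ≤ 2 * s) (h2 : t ≤ 2 * c)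
    (h3 : t ≤ s + c - 1) : t * ((s + c) ^ 2 / 4) ≤ (s + c - 1) * (s * c) := by
  set q := (s + c) ^ 2 / 4 with hq
  have hq4 : 4 * q ≤ (s + c) ^ 2 := by
    have := Nat.div_mul_le_self ((s + c) ^ 2) 4
    omega
  by_cases h : q ≤ s * c
  · calc t * q ≤ (s + c - 1) * q := Nat.mul_le_mul_right q h3
      _ ≤ (s + c - 1) * (s * c) := Nat.mul_le_mul_left _ h
  · push Not at h
    have h4 : 4 * (s * c) + 4 ≤ (s + c) ^ 2 := by omega
    have hfar : s + 2 ≤ c ∨ c + 2 ≤ s := by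
      by_contra hcon
      push Not at hcon
      have h5 : c = s ∨ c = s + 1 ∨ s = c + 1 := by omega
      rcases h5 with rfl | rfl | rfl
      · nlinarith
      · nlinarith
      · nlinarith
    have e1 : ((s + c - 1 : ℕ) : ℤ) = (s : ℤ) + (c : ℤ) - 1 := by
      rw [Nat.cast_sub (by omega)]; push_cast; ring
    have hgoal : (t : ℤ) * (q : ℤ) ≤ ((s : ℤ) + (c : ℤ) - 1) * ((s : ℤ) * (c : ℤ)) := by
      have hq4' : 4 * (q : ℤ) ≤ ((s : ℤ) + (c : ℤ)) ^ 2 := by exact_mod_cast hq4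
      have hs' : (1 : ℤ) ≤ (s : ℤ) := by exact_mod_cast hs
      have hc' : (1 : ℤ) ≤ (c : ℤ) := by exact_mod_cast hc
      have h1' : (t : ℤ) ≤ 2 * (s : ℤ) := by exact_mod_cast h1
      have h2' : (t : ℤ) ≤ 2 * (c : ℤ) := by exact_mod_cast h2
      have ht0 : (0 : ℤ) ≤ (t : ℤ) := by positivity
      have hq0 : (0 : ℤ) ≤ (q : ℤ) := by positivity
      rcases hfar with hf | hf
      · have hf' : (s : ℤ) + 2 ≤ (c : ℤ) := by exact_mod_cast hf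
        have a1 : (t : ℤ) * (q : ℤ) ≤ 2 * (s : ℤ) * (q : ℤ) :=
          mul_le_mul_of_nonneg_right h1' hq0
        have a2 : 4 * (2 * (s : ℤ) * (q : ℤ)) ≤ 2 * (s : ℤ) * ((s : ℤ) + (c : ℤ)) ^ 2 := by
          nlinarith
        have a3 : 2 * (s : ℤ) * ((s : ℤ) + (c : ℤ)) ^ 2
            ≤ 4 * (((s : ℤ) + (c : ℤ) - 1) * ((s : ℤ) * (c : ℤ))) := by
          nlinarith [mul_nonneg (by linarith : (0 : ℤ) ≤ (s : ℤ))
            (by nlinarith : (0 : ℤ) ≤ ((c : ℤ) - 1) ^ 2 - (s : ℤ) ^ 2 - 1)]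
        linarith
      · have hf' : (c : ℤ) + 2 ≤ (s : ℤ) := by exact_mod_cast hf
        have a1 : (t : ℤ) * (q : ℤ) ≤ 2 * (c : ℤ) * (q : ℤ) :=
          mul_le_mul_of_nonneg_right h2' hq0
        have a2 : 4 * (2 * (c : ℤ) * (q : ℤ)) ≤ 2 * (c : ℤ) * ((s : ℤ) + (c : ℤ)) ^ 2 := by
          nlinarith
        have a3 : 2 * (c : ℤ) * ((s : ℤ) + (c : ℤ)) ^ 2
            ≤ 4 * (((s : ℤ) + (c : ℤ) - 1) * ((s : ℤ) * (c : ℤ))) := by
          nlinarith [mul_nonneg (by linarith : (0 : ℤ) ≤ (c : ℤ))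
            (by nlinarith : (0 : ℤ) ≤ ((s : ℤ) - 1) ^ 2 - (c : ℤ) ^ 2 - 1)]
        linarith
    have : ((t * q : ℕ) : ℤ) ≤ (((s + c - 1) * (s * c) : ℕ) : ℤ) := by
      push_cast
      rw [e1]
      exact hgoal
    exact_mod_cast this

/-- Lower bound: if every cut `(S, Sᶜ)` contains at most `α * (m |S| |Sᶜ|)` edges of the tree
`T`, then `α ≥ (n - 1) / (m ⌊n² / 4⌋)`. -/
theorem exact_lower (n m : ℕ) (hn : 2 ≤ n) (hm : 1 ≤ m) (T : SimpleGraph (Fin n)) (α : ℝ)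
    (hT : T.IsTree)
    (h : ∀ S : Finset (Fin n), S.Nonempty → Sᶜ.Nonempty →
      (Set.ncard {p : Fin n × Fin n | p.1 ∈ S ∧ p.2 ∉ S ∧ T.Adj p.1 p.2} : ℝ) ≤
        α * ((m : ℝ) * ((S.card : ℝ) * (Sᶜ.card : ℝ)))) :
    ((n : ℝ) - 1) / ((m : ℝ) * ((n ^ 2 / 4 : ℕ) : ℝ)) ≤ α := by
  obtain ⟨S, hS, hSc, hcut⟩ := tree_cut n hn T hT
  have h1 := h S hS hSc
  have hsum := card_add_card_compl' n S
  have hn1 : ((n - 1 : ℕ) : ℝ) = (n : ℝ) - 1 := by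
    rw [Nat.cast_sub (by omega)]; simp
  have hcut' : (n : ℝ) - 1 ≤ (treeCut T S : ℝ) := by
    rw [← hn1]; exact_mod_cast hcut
  have hcut'' : (n : ℝ) - 1 ≤
      (Set.ncard {p : Fin n × Fin n | p.1 ∈ S ∧ p.2 ∉ S ∧ T.Adj p.1 p.2} : ℝ) := hcut'
  have hnpos : (0 : ℝ) < (n : ℝ) - 1 := by
    have : (2 : ℝ) ≤ n := by exact_mod_cast hn
    linarith
  have hm0 : (0 : ℝ) < (m : ℝ) := by exact_mod_cast hm
  have ha : (1 : ℝ) ≤ (S.card : ℝ) := by exact_mod_cast hS.card_pos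
  have hb : (1 : ℝ) ≤ (Sᶜ.card : ℝ) := by exact_mod_cast hSc.card_pos
  have hprod_pos : (0 : ℝ) < (m : ℝ) * ((S.card : ℝ) * (Sᶜ.card : ℝ)) := by positivity
  have h2 : (n : ℝ) - 1 ≤ α * ((m : ℝ) * ((S.card : ℝ) * (Sᶜ.card : ℝ))) := le_trans hcut'' h1
  have hαpos : 0 < α := by
    by_contra hC
    push Not at hC
    have : α * ((m : ℝ) * ((S.card : ℝ) * (Sᶜ.card : ℝ))) ≤ 0 :=
      mul_nonpos_of_nonpos_of_nonneg hC hprod_pos.le
    linarith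
  -- the integer bound `|S| |Sᶜ| ≤ ⌊n² / 4⌋`
  have hq : S.card * Sᶜ.card ≤ n ^ 2 / 4 := by
    rw [Nat.le_div_iff_mul_le (by norm_num)]
    have hn2 : n ^ 2 = (S.card + Sᶜ.card) ^ 2 := by rw [hsum]
    rw [hn2]
    have hz : (S.card : ℤ) * (Sᶜ.card : ℤ) * 4 ≤ ((S.card : ℤ) + (Sᶜ.card : ℤ)) ^ 2 := by
      nlinarith [sq_nonneg ((S.card : ℤ) - (Sᶜ.card : ℤ))]
    exact_mod_cast hz
  have hq' : (S.card : ℝ) * (Sᶜ.card : ℝ) ≤ ((n ^ 2 / 4 : ℕ) : ℝ) := by exact_mod_cast hq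
  have hqpos : (0 : ℝ) < ((n ^ 2 / 4 : ℕ) : ℝ) := by
    have : 1 ≤ n ^ 2 / 4 := by
      rw [Nat.le_div_iff_mul_le (by norm_num)]
      nlinarith
    exact_mod_cast this
  rw [div_le_iff₀ (by positivity)]
  have h3 : α * ((m : ℝ) * ((S.card : ℝ) * (Sᶜ.card : ℝ)))
      ≤ α * ((m : ℝ) * ((n ^ 2 / 4 : ℕ) : ℝ)) := by
    apply mul_le_mul_of_nonneg_left _ hαpos.le
    exact mul_le_mul_of_nonneg_left hq' hm0.le
  linarith

/-- Upper bound: every cut `(S, Sᶜ)` contains at most `(n - 1) / (m ⌊n² / 4⌋) * (m |S| |Sᶜ|)`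
edges of the Hamiltonian path. -/
theorem exact_upper (n m : ℕ) (hn : 2 ≤ n) (hm : 1 ≤ m) (S : Finset (Fin n))
    (hS : S.Nonempty) (hSc : Sᶜ.Nonempty) :
    (Set.ncard {p : Fin n × Fin n | p.1 ∈ S ∧ p.2 ∉ S ∧
        (SimpleGraph.pathGraph n).Adj p.1 p.2} : ℝ) ≤
      ((n : ℝ) - 1) / ((m : ℝ) * ((n ^ 2 / 4 : ℕ) : ℝ)) *
        ((m : ℝ) * ((S.card : ℝ) * (Sᶜ.card : ℝ))) := by
  obtain ⟨h1, h2⟩ := pathGraph_cut_le n S
  have h3 := pathGraph_cut_le_pred n S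
  have hsum := card_add_card_compl' n S
  have hs : 1 ≤ S.card := hS.card_pos
  have hc : 1 ≤ Sᶜ.card := hSc.card_pos
  have hkey := key S.card Sᶜ.card (treeCut (SimpleGraph.pathGraph n) S) hs hc h1 h2
    (by rw [hsum]; exact h3)
  rw [hsum] at hkey
  have hm0 : (0 : ℝ) < (m : ℝ) := by exact_mod_cast hm
  have hqpos : (0 : ℝ) < ((n ^ 2 / 4 : ℕ) : ℝ) := by
    have : 1 ≤ n ^ 2 / 4 := by
      rw [Nat.le_div_iff_mul_le (by norm_num)]
      nlinarith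
    exact_mod_cast this
  have hn1 : ((n - 1 : ℕ) : ℝ) = (n : ℝ) - 1 := by
    rw [Nat.cast_sub (by omega)]; simp
  have hkey' : (treeCut (SimpleGraph.pathGraph n) S : ℝ) * ((n ^ 2 / 4 : ℕ) : ℝ)
      ≤ ((n : ℝ) - 1) * ((S.card : ℝ) * (Sᶜ.card : ℝ)) := by
    rw [← hn1]
    exact_mod_cast hkey
  have e : ((n : ℝ) - 1) / ((m : ℝ) * ((n ^ 2 / 4 : ℕ) : ℝ)) *
        ((m : ℝ) * ((S.card : ℝ) * (Sᶜ.card : ℝ)))
      = ((n : ℝ) - 1) * ((S.card : ℝ) * (Sᶜ.card : ℝ)) / ((n ^ 2 / 4 : ℕ) : ℝ) := by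
    field_simp
  rw [e, le_div_iff₀ hqpos]
  exact hkey'

end Vale.Agent.Helper3.CompleteExact
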