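import Vale.Agent.Helper8.KK.Half
import Vale.Agent.Helper25.KKThreshold
import Vale.Agent.Helper3.KKLeast

namespace Vale.Agent.Helper3.KKFractional

open SimpleGraph

theorem fractional_bound : ∀ (n : ℕ) (H : SimpleGraph (Fin n)),
    (∃ pE : ℝ, IsLeast {p : ℝ | 0 ≤ p ∧ p ≤ 1 ∧ ∀ F : SimpleGraph (Fin n), F ≤ H →
      1 / 2 ≤ ((⊤ : SimpleGraph (Fin n)).copyCount F : ℝ) * p ^ F.edgeSet.ncard} pE) ∧
    (∃ pEt : ℝ, IsLeast {p : ℝ | 0 ≤ p ∧ p ≤ 1 ∧ ∀ F : SimpleGraph (Fin n), F ≤ H →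
      (H.copyCount F : ℝ) / 2 ≤
        ((⊤ : SimpleGraph (Fin n)).copyCount F : ℝ) * p ^ F.edgeSet.ncard} pEt) ∧
    ∀ pE pEt : ℝ,
      IsLeast {p : ℝ | 0 ≤ p ∧ p ≤ 1 ∧ ∀ F : SimpleGraph (Fin n), F ≤ H →
        1 / 2 ≤ ((⊤ : SimpleGraph (Fin n)).copyCount F : ℝ) * p ^ F.edgeSet.ncard} pE →
      IsLeast {p : ℝ | 0 ≤ p ∧ p ≤ 1 ∧ ∀ F : SimpleGraph (Fin n), F ≤ H →
        (H.copyCount F : ℝ) / 2 ≤
          ((⊤ : SimpleGraph (Fin n)).copyCount F : ℝ) * p ^ F.edgeSet.ncard} pEt →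
      pE ≤ pEt ∧ pEt ≤ 76896 * (1 + (n : ℝ) * pE) * pE ∧
      (H.IsAcyclic → pEt ≤ 720 * max pE (Real.log n / n)) ∧
      (H.IsAcyclic → pEt ≤ 170000 * Real.sqrt (Real.log n) * pE) := by
  intro n H
  refine ⟨Vale.Agent.Helper3.KKLeast.exists_isLeast_pE n H,
    Vale.Agent.Helper3.KKLeast.exists_isLeast_pEt n H, ?_⟩
  intro pE pEt hE hEt
  obtain ⟨⟨hE0, hE1, hyp⟩, hEmin⟩ := hE
  obtain ⟨⟨hEt0, hEt1, hypt⟩, hEtmin⟩ := hEt
  -- a value `p'` in `[0,1]` with the counting inequality for all `F ≤ H` bounds `pEt`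
  have key : ∀ p' : ℝ, 0 ≤ p' → p' ≤ 1 →
      (∀ F : SimpleGraph (Fin n), (H.copyCount F : ℝ) ≤
        ((⊤ : SimpleGraph (Fin n)).copyCount F : ℝ) * p' ^ F.edgeSet.ncard) → pEt ≤ p' := by
    intro p' h0 h1 hc
    apply hEtmin
    refine ⟨h0, h1, fun F _ => ?_⟩
    have h2 := hc F
    have h3 : (0:ℝ) ≤ (H.copyCount F : ℝ) := Nat.cast_nonneg _
    linarith
  refine ⟨?_, ?_, ?_, ?_⟩
  · apply hEmin
    refine ⟨hEt0, hEt1, fun F hF => ?_⟩
    have hpos : 0 < H.copyCount F := copyCount_pos.2 (IsContained.of_le hF)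
    have h1 : (1:ℝ) ≤ (H.copyCount F : ℝ) := by exact_mod_cast hpos
    have h2 := hypt F hF
    linarith
  · have h0 : (0:ℝ) ≤ 76896 * (1 + (n : ℝ) * pE) * pE := by positivity
    refine (key (min 1 (76896 * (1 + (n : ℝ) * pE) * pE)) (le_min zero_le_one h0)
      (min_le_left _ _) (fun F => ?_)).trans (min_le_right _ _)
    exact Vale.Agent.Helper8.KK.all_graphs_half H pE hE0 hyp F
  · intro hH
    have h0 : (0:ℝ) ≤ 720 * max pE (Real.log n / n) := by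
      have : (0:ℝ) ≤ max pE (Real.log n / n) := le_max_of_le_left hE0
      positivity
    refine (key (min 1 (720 * max pE (Real.log n / n))) (le_min zero_le_one h0)
      (min_le_left _ _) (fun F => ?_)).trans (min_le_right _ _)
    exact Vale.Agent.Helper25.KKThreshold.forest_threshold_any H hH pE hE0 hyp F
  · intro hH
    have h0 : (0:ℝ) ≤ 170000 * Real.sqrt (Real.log n) * pE := by positivity
    refine (key (min 1 (170000 * Real.sqrt (Real.log n) * pE)) (le_min zero_le_one h0)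
      (min_le_left _ _) (fun F => ?_)).trans (min_le_right _ _)
    exact Vale.Agent.Helper25.KKThreshold.forest_sqrt H hH pE hE0 hyp F

end Vale.Agent.Helper3.KKFractional
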