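import Mathlib

/-!
# P254 (W_n), Step 1: the merging inequality `starW` from the hyperbolic inequality `G ≥ 0`

Pure algebra: with `Q = √p = exp(-lam)`, `√c = exp(-mu)`, `a k = exp(-2 v k)` the three sums
`U0, U1, L` are linear in `T = ∑ Q(1-a)/(1-Qa)` and `S = ∑ Q(1-a)/(1+Qa)`, and the difference of the
two sides of `starW` is `2 Q √c` times the difference of the two sides of the hyperbolic inequality.
-/

namespace Vale.Agent.Helper3.StarW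

open Finset

/-- per-term identity for `x(v) = sinh v / (sinh l * sinh (l+v))`. -/
theorem x_term (s α l w : ℝ) (hs : 0 < s) (hs1 : s < 1) (hα : 0 < α) (hα1 : α ≤ 1)
    (hl : Real.exp (-l) = s) (hw : Real.exp (-w) = α) :
    Real.sinh w / (Real.sinh l * Real.sinh (l + w))
      = 2 * (s ^ 2 * (1 - α ^ 2) / (1 - s ^ 2 * α ^ 2)) / (1 - s ^ 2) := by
  have e1 : Real.exp l = s⁻¹ := by rw [← hl, Real.exp_neg, inv_inv]
  have e2 : Real.exp w = α⁻¹ := by rw [← hw, Real.exp_neg, inv_inv]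
  have e3 : Real.exp (l + w) = s⁻¹ * α⁻¹ := by rw [Real.exp_add, e1, e2]
  have e4 : Real.exp (-(l + w)) = s * α := by rw [neg_add, Real.exp_add, hl, hw]
  have hs2 : s ^ 2 < 1 := by nlinarith
  have hsα : s ^ 2 * α ^ 2 < 1 := by
    have h1 : α ^ 2 ≤ 1 := by nlinarith
    nlinarith [sq_nonneg s, sq_nonneg α]
  have h1 : (1:ℝ) - s ^ 2 ≠ 0 := by linarith
  have h2 : (1:ℝ) - s ^ 2 * α ^ 2 ≠ 0 := by linarith
  have hs0 : s ≠ 0 := hs.ne'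
  have hα0 : α ≠ 0 := hα.ne'
  have k1 : Real.sinh w = (1 - α ^ 2) / (2 * α) := by
    rw [Real.sinh_eq, e2, hw]; field_simp
  have k2 : Real.sinh l = (1 - s ^ 2) / (2 * s) := by
    rw [Real.sinh_eq, e1, hl]; field_simp
  have k3 : Real.sinh (l + w) = (1 - s ^ 2 * α ^ 2) / (2 * (s * α)) := by
    rw [Real.sinh_eq, e3, e4]; field_simp
  rw [k1, k2, k3]
  field_simp

/-- per-term identity for `z(v) = sinh v / (cosh l * cosh (l+v))`. -/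
theorem z_term (s α l w : ℝ) (hs : 0 < s) (hα : 0 < α)
    (hl : Real.exp (-l) = s) (hw : Real.exp (-w) = α) :
    Real.sinh w / (Real.cosh l * Real.cosh (l + w))
      = 2 * (s ^ 2 * (1 - α ^ 2) / (1 + s ^ 2 * α ^ 2)) / (1 + s ^ 2) := by
  have e1 : Real.exp l = s⁻¹ := by rw [← hl, Real.exp_neg, inv_inv]
  have e2 : Real.exp w = α⁻¹ := by rw [← hw, Real.exp_neg, inv_inv]
  have e3 : Real.exp (l + w) = s⁻¹ * α⁻¹ := by rw [Real.exp_add, e1, e2]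
  have e4 : Real.exp (-(l + w)) = s * α := by rw [neg_add, Real.exp_add, hl, hw]
  have h1 : (1:ℝ) + s ^ 2 ≠ 0 := by positivity
  have h2 : (1:ℝ) + s ^ 2 * α ^ 2 ≠ 0 := by positivity
  have hs0 : s ≠ 0 := hs.ne'
  have hα0 : α ≠ 0 := hα.ne'
  have k1 : Real.sinh w = (1 - α ^ 2) / (2 * α) := by
    rw [Real.sinh_eq, e2, hw]; field_simp
  have k2 : Real.cosh l = (1 + s ^ 2) / (2 * s) := by
    rw [Real.cosh_eq, e1, hl]; field_simp
  have k3 : Real.cosh (l + w) = (1 + s ^ 2 * α ^ 2) / (2 * (s * α)) := by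
    rw [Real.cosh_eq, e3, e4]; field_simp
  rw [k1, k2, k3]
  field_simp

/-- The final algebra: with `Q = s^2`, `√c = r`, the `starW` difference is `2 Q r` times the
hyperbolic difference. All hyperbolic values are already written as rational functions. -/
theorem final_alg (s r T S : ℝ) (hs : 0 < s) (hs1 : s < 1) (hr : 0 < r)
    (hG : 4 * ((r ^ 2 - s ^ 4) / (2 * s ^ 2 * r))
        ≤ 1 / 2 * ((1 - s ^ 4) / (2 * s ^ 2)) * ((1 - s ^ 4 * r ^ 2) / (2 * s ^ 2 * r))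
            * (2 * T / (1 - s ^ 2) + 2 * S / (1 + s ^ 2))
          + 4 * ((1 + r ^ 2) / (2 * r))
            * (((1 + s ^ 2) / (2 * s)) ^ 2 * (2 * S / (1 + s ^ 2))
                - ((1 - s ^ 2) / (2 * s)) ^ 2 * (2 * T / (1 - s ^ 2)))
          + 1 / 2 * ((1 - s ^ 4) / (2 * s ^ 2)) * ((1 + r ^ 2) / (2 * r))
            * ((2 * T / (1 - s ^ 2)) * (2 * S / (1 + s ^ 2)))) :
    4 * (r ^ 2 - s ^ 4)
      ≤ (1 - s ^ 4 * r ^ 2) * ((T + S) / (2 * s ^ 2) + s ^ 4 * ((T - S) / (2 * s ^ 4)))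
        + (1 + r ^ 2) * s ^ 4
          * (4 * (((1 + s ^ 2) * S - (1 - s ^ 2) * T) / (2 * s ^ 4))
              + ((T + S) / (2 * s ^ 2)) ^ 2 - s ^ 4 * ((T - S) / (2 * s ^ 4)) ^ 2) := by
  have hs2 : s ^ 2 < 1 := by nlinarith
  have h1 : (1:ℝ) - s ^ 2 ≠ 0 := by linarith
  have h2 : (1:ℝ) + s ^ 2 ≠ 0 := by positivity
  have hs0 : s ≠ 0 := hs.ne'
  have hr0 : r ≠ 0 := hr.ne'
  have key : (1 - s ^ 4 * r ^ 2) * ((T + S) / (2 * s ^ 2) + s ^ 4 * ((T - S) / (2 * s ^ 4)))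
        + (1 + r ^ 2) * s ^ 4
          * (4 * (((1 + s ^ 2) * S - (1 - s ^ 2) * T) / (2 * s ^ 4))
              + ((T + S) / (2 * s ^ 2)) ^ 2 - s ^ 4 * ((T - S) / (2 * s ^ 4)) ^ 2)
        - 4 * (r ^ 2 - s ^ 4)
      = 2 * s ^ 2 * r * (1 / 2 * ((1 - s ^ 4) / (2 * s ^ 2)) * ((1 - s ^ 4 * r ^ 2) / (2 * s ^ 2 * r))
            * (2 * T / (1 - s ^ 2) + 2 * S / (1 + s ^ 2))
          + 4 * ((1 + r ^ 2) / (2 * r))
            * (((1 + s ^ 2) / (2 * s)) ^ 2 * (2 * S / (1 + s ^ 2))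
                - ((1 - s ^ 2) / (2 * s)) ^ 2 * (2 * T / (1 - s ^ 2)))
          + 1 / 2 * ((1 - s ^ 4) / (2 * s ^ 2)) * ((1 + r ^ 2) / (2 * r))
            * ((2 * T / (1 - s ^ 2)) * (2 * S / (1 + s ^ 2)))
          - 4 * ((r ^ 2 - s ^ 4) / (2 * s ^ 2 * r))) := by
    field_simp
    ring
  have hpos : 0 < 2 * s ^ 2 * r := by positivity
  nlinarith [mul_nonneg hpos.le (sub_nonneg.mpr hG)]

theorem sinh_of_exp (l s : ℝ) (hs : 0 < s) (hl : Real.exp (-l) = s) :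
    Real.sinh l = (1 - s ^ 2) / (2 * s) := by
  have e1 : Real.exp l = s⁻¹ := by rw [← hl, Real.exp_neg, inv_inv]
  have hs0 : s ≠ 0 := hs.ne'
  rw [Real.sinh_eq, e1, hl]; field_simp

theorem cosh_of_exp (l s : ℝ) (hs : 0 < s) (hl : Real.exp (-l) = s) :
    Real.cosh l = (1 + s ^ 2) / (2 * s) := by
  have e1 : Real.exp l = s⁻¹ := by rw [← hl, Real.exp_neg, inv_inv]
  have hs0 : s ≠ 0 := hs.ne'
  rw [Real.cosh_eq, e1, hl]; field_simp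

theorem den_ne (s a : ℝ) (hs : 0 < s) (hs1 : s < 1) (ha0 : 0 < a) (ha1 : a ≤ 1) :
    (1:ℝ) - s ^ 2 * a ≠ 0 ∧ (1:ℝ) + s ^ 2 * a ≠ 0 ∧ (1:ℝ) - s ^ 4 * a ^ 2 ≠ 0 := by
  have hs2lt : s ^ 2 < 1 := by nlinarith
  have h4 : s ^ 2 * a < 1 := by nlinarith [sq_nonneg s]
  have h5 : 0 < s ^ 2 * a := by positivity
  refine ⟨by linarith, by positivity, ?_⟩
  have : (1:ℝ) - s ^ 4 * a ^ 2 = (1 - s ^ 2 * a) * (1 + s ^ 2 * a) := by ring
  rw [this]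
  exact mul_ne_zero (by linarith) (by positivity)

theorem u0_term (s a : ℝ) (hs : s ≠ 0) (h1 : (1:ℝ) - s ^ 2 * a ≠ 0) (h2 : (1:ℝ) + s ^ 2 * a ≠ 0) :
    (1 - a) / (1 - s ^ 4 * a ^ 2)
      = (s ^ 2 * (1 - a) / (1 - s ^ 2 * a) + s ^ 2 * (1 - a) / (1 + s ^ 2 * a)) / (2 * s ^ 2) := by
  have : (1:ℝ) - s ^ 4 * a ^ 2 = (1 - s ^ 2 * a) * (1 + s ^ 2 * a) := by ring
  rw [this]
  have h1' : (1:ℝ) - a * s ^ 2 ≠ 0 := by rw [mul_comm]; exact h1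
  have h2' : (1:ℝ) + a * s ^ 2 ≠ 0 := by rw [mul_comm]; exact h2
  field_simp
  ring

theorem u1_term (s a : ℝ) (hs : s ≠ 0) (h1 : (1:ℝ) - s ^ 2 * a ≠ 0) (h2 : (1:ℝ) + s ^ 2 * a ≠ 0) :
    a * (1 - a) / (1 - s ^ 4 * a ^ 2)
      = (s ^ 2 * (1 - a) / (1 - s ^ 2 * a) - s ^ 2 * (1 - a) / (1 + s ^ 2 * a)) / (2 * s ^ 4) := by
  have : (1:ℝ) - s ^ 4 * a ^ 2 = (1 - s ^ 2 * a) * (1 + s ^ 2 * a) := by ring
  rw [this]
  have h1' : (1:ℝ) - a * s ^ 2 ≠ 0 := by rw [mul_comm]; exact h1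
  have h2' : (1:ℝ) + a * s ^ 2 ≠ 0 := by rw [mul_comm]; exact h2
  field_simp
  ring

theorem l_term (s a : ℝ) (hs : s ≠ 0) (h1 : (1:ℝ) - s ^ 2 * a ≠ 0) (h2 : (1:ℝ) + s ^ 2 * a ≠ 0) :
    (1 - a) ^ 2 / (1 - s ^ 4 * a ^ 2)
      = ((1 + s ^ 2) * (s ^ 2 * (1 - a) / (1 + s ^ 2 * a))
          - (1 - s ^ 2) * (s ^ 2 * (1 - a) / (1 - s ^ 2 * a))) / (2 * s ^ 4) := by
  have : (1:ℝ) - s ^ 4 * a ^ 2 = (1 - s ^ 2 * a) * (1 + s ^ 2 * a) := by ring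
  rw [this]
  have h1' : (1:ℝ) - a * s ^ 2 ≠ 0 := by rw [mul_comm]; exact h1
  have h2' : (1:ℝ) + a * s ^ 2 ≠ 0 := by rw [mul_comm]; exact h2
  field_simp
  ring

/-- The rational core: everything after the hyperbolic functions have been evaluated. -/
theorem starW_core {ι : Type*} (R : Finset ι) (a : ι → ℝ) (c p U0 U1 L s r T S : ℝ)
    (hs0 : 0 < s) (hs1 : s < 1) (hr0 : 0 < r) (hr2 : r ^ 2 = c) (hs4 : s ^ 4 = p)
    (ha : ∀ k ∈ R, 0 < a k ∧ a k ≤ 1)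
    (hT : T = ∑ k ∈ R, s ^ 2 * (1 - a k) / (1 - s ^ 2 * a k))
    (hS : S = ∑ k ∈ R, s ^ 2 * (1 - a k) / (1 + s ^ 2 * a k))
    (hU0 : U0 = ∑ k ∈ R, (1 - a k) / (1 - p * a k ^ 2))
    (hU1 : U1 = ∑ k ∈ R, a k * (1 - a k) / (1 - p * a k ^ 2))
    (hL : L = ∑ k ∈ R, (1 - a k) ^ 2 / (1 - p * a k ^ 2))
    (hG : 4 * ((r ^ 2 - s ^ 4) / (2 * s ^ 2 * r))
        ≤ 1 / 2 * ((1 - s ^ 4) / (2 * s ^ 2)) * ((1 - s ^ 4 * r ^ 2) / (2 * s ^ 2 * r))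
            * (2 * T / (1 - s ^ 2) + 2 * S / (1 + s ^ 2))
          + 4 * ((1 + r ^ 2) / (2 * r))
            * (((1 + s ^ 2) / (2 * s)) ^ 2 * (2 * S / (1 + s ^ 2))
                - ((1 - s ^ 2) / (2 * s)) ^ 2 * (2 * T / (1 - s ^ 2)))
          + 1 / 2 * ((1 - s ^ 4) / (2 * s ^ 2)) * ((1 + r ^ 2) / (2 * r))
            * ((2 * T / (1 - s ^ 2)) * (2 * S / (1 + s ^ 2)))) :
    4 * (c - p) ≤ (1 - p * c) * (U0 + p * U1) + (1 + c) * p * (4 * L + U0 ^ 2 - p * U1 ^ 2) := by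
  have hs0' : s ≠ 0 := hs0.ne'
  have hU0' : U0 = (T + S) / (2 * s ^ 2) := by
    rw [hU0, hT, hS, ← Finset.sum_add_distrib, Finset.sum_div, ← hs4]
    refine Finset.sum_congr rfl (fun k hk => ?_)
    obtain ⟨h1, h2, _⟩ := den_ne s (a k) hs0 hs1 (ha k hk).1 (ha k hk).2
    exact u0_term s (a k) hs0' h1 h2
  have hU1' : U1 = (T - S) / (2 * s ^ 4) := by
    rw [hU1, hT, hS, ← Finset.sum_sub_distrib, Finset.sum_div, ← hs4]
    refine Finset.sum_congr rfl (fun k hk => ?_)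
    obtain ⟨h1, h2, _⟩ := den_ne s (a k) hs0 hs1 (ha k hk).1 (ha k hk).2
    exact u1_term s (a k) hs0' h1 h2
  have hL' : L = ((1 + s ^ 2) * S - (1 - s ^ 2) * T) / (2 * s ^ 4) := by
    rw [hL, hT, hS, Finset.mul_sum, Finset.mul_sum, ← Finset.sum_sub_distrib, Finset.sum_div,
      ← hs4]
    refine Finset.sum_congr rfl (fun k hk => ?_)
    obtain ⟨h1, h2, _⟩ := den_ne s (a k) hs0 hs1 (ha k hk).1 (ha k hk).2
    exact l_term s (a k) hs0' h1 h2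
  rw [hU0', hU1', hL', ← hr2, ← hs4]
  exact final_alg s r T S hs0 hs1 hr0 hG

/-- The hyperbolic values in terms of `s = exp(-lam/2)`, `r = exp(-mu)`. -/
theorem hyp_values (lam mu s r : ℝ) (hs_def : s = Real.exp (-(lam / 2)))
    (hr_def : r = Real.exp (-mu)) :
    Real.sinh (lam / 2) = (1 - s ^ 2) / (2 * s) ∧ Real.cosh (lam / 2) = (1 + s ^ 2) / (2 * s)
    ∧ Real.cosh mu = (1 + r ^ 2) / (2 * r) ∧ Real.sinh lam = (1 - s ^ 4) / (2 * s ^ 2)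
    ∧ Real.sinh (lam + mu) = (1 - s ^ 4 * r ^ 2) / (2 * s ^ 2 * r)
    ∧ Real.sinh (lam - mu) = (r ^ 2 - s ^ 4) / (2 * s ^ 2 * r) := by
  have hs0 : 0 < s := by rw [hs_def]; exact Real.exp_pos _
  have hr0 : 0 < r := by rw [hr_def]; exact Real.exp_pos _
  have hexp_lam : Real.exp (-lam) = s ^ 2 := by
    rw [hs_def, ← Real.exp_nat_mul]; congr 1; push_cast; ring
  have hexp_lammu : Real.exp (-(lam + mu)) = s ^ 2 * r := by
    rw [neg_add, Real.exp_add, hexp_lam, ← hr_def]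
  have hexp_mu' : Real.exp mu = r⁻¹ := by rw [hr_def, Real.exp_neg, inv_inv]
  have hexp_diff : Real.exp (-(lam - mu)) = s ^ 2 * r⁻¹ := by
    have : -(lam - mu) = -lam + mu := by ring
    rw [this, Real.exp_add, hexp_lam, hexp_mu']
  refine ⟨sinh_of_exp _ _ hs0 hs_def.symm, cosh_of_exp _ _ hs0 hs_def.symm,
    cosh_of_exp _ _ hr0 hr_def.symm, ?_, ?_, ?_⟩
  · rw [sinh_of_exp lam (s ^ 2) (by positivity) hexp_lam]; ring
  · rw [sinh_of_exp (lam + mu) (s ^ 2 * r) (by positivity) hexp_lammu]; ring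
  · rw [sinh_of_exp (lam - mu) (s ^ 2 * r⁻¹) (by positivity) hexp_diff]
    have hs0' : s ≠ 0 := hs0.ne'
    have hr0' : r ≠ 0 := hr0.ne'
    field_simp

/-- `starW` from the hyperbolic inequality `G ≥ 0` (taken as a hypothesis in exactly the shape of
`Vale.Agent.Helper13.StarW.G_nonneg`). -/
theorem starW_of_G {ι : Type*}
    (hG : ∀ (R : Finset ι) (v : ι → ℝ) (lam mu X Z : ℝ), 0 < mu →
      (∀ k ∈ R, 0 ≤ v k ∧ v k ≤ mu / 2) → lam = mu + ∑ k ∈ R, v k →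
      X = ∑ k ∈ R, Real.sinh (v k) / (Real.sinh (lam / 2) * Real.sinh (lam / 2 + v k)) →
      Z = ∑ k ∈ R, Real.sinh (v k) / (Real.cosh (lam / 2) * Real.cosh (lam / 2 + v k)) →
      4 * Real.sinh (lam - mu) ≤ 1 / 2 * Real.sinh lam * Real.sinh (lam + mu) * (X + Z)
        + 4 * Real.cosh mu * (Real.cosh (lam / 2) ^ 2 * Z - Real.sinh (lam / 2) ^ 2 * X)
        + 1 / 2 * Real.sinh lam * Real.cosh mu * (X * Z))
    (R : Finset ι) (a : ι → ℝ) (c p U0 U1 L : ℝ) (hc0 : 0 < c) (hc1 : c < 1)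
    (ha : ∀ k ∈ R, c ≤ a k ^ 2 ∧ 0 < a k ∧ a k ≤ 1) (hp : p = c * ∏ k ∈ R, a k)
    (hU0 : U0 = ∑ k ∈ R, (1 - a k) / (1 - p * a k ^ 2))
    (hU1 : U1 = ∑ k ∈ R, a k * (1 - a k) / (1 - p * a k ^ 2))
    (hL : L = ∑ k ∈ R, (1 - a k) ^ 2 / (1 - p * a k ^ 2)) :
    4 * (c - p) ≤ (1 - p * c) * (U0 + p * U1) + (1 + c) * p * (4 * L + U0 ^ 2 - p * U1 ^ 2) := by
  -- basic facts
  have hprod_pos : 0 < ∏ k ∈ R, a k := Finset.prod_pos (fun k hk => (ha k hk).2.1)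
  have hp0 : 0 < p := by rw [hp]; exact mul_pos hc0 hprod_pos
  -- the hyperbolic parameters
  obtain ⟨mu, hmu_def⟩ : ∃ mu : ℝ, mu = -Real.log c / 2 := ⟨_, rfl⟩
  obtain ⟨v, hv_def⟩ : ∃ v : ι → ℝ, v = fun k => -Real.log (a k) / 2 := ⟨_, rfl⟩
  obtain ⟨lam, hlam_def⟩ : ∃ lam : ℝ, lam = mu + ∑ k ∈ R, v k := ⟨_, rfl⟩
  have hvk : ∀ k, v k = -Real.log (a k) / 2 := fun k => by rw [hv_def]
  have hmu : 0 < mu := by
    have := Real.log_neg hc0 hc1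
    rw [hmu_def]; linarith
  have hv : ∀ k ∈ R, 0 ≤ v k ∧ v k ≤ mu / 2 := by
    intro k hk
    obtain ⟨h1, h2, h3⟩ := ha k hk
    have hlog1 : Real.log (a k) ≤ 0 := Real.log_nonpos h2.le h3
    have hlog2 : Real.log c ≤ 2 * Real.log (a k) := by
      have := Real.log_le_log hc0 h1
      rw [Real.log_pow] at this
      push_cast at this
      exact this
    rw [hvk k, hmu_def]
    constructor <;> linarith
  have hvsum_nonneg : 0 ≤ ∑ k ∈ R, v k := Finset.sum_nonneg (fun k hk => (hv k hk).1)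
  have hlam_pos : 0 < lam := by rw [hlam_def]; linarith
  -- the exponentials
  obtain ⟨s, hs_def⟩ : ∃ s : ℝ, s = Real.exp (-(lam / 2)) := ⟨_, rfl⟩
  obtain ⟨r, hr_def⟩ : ∃ r : ℝ, r = Real.exp (-mu) := ⟨_, rfl⟩
  have hs0 : 0 < s := by rw [hs_def]; exact Real.exp_pos _
  have hs1 : s < 1 := by rw [hs_def]; exact Real.exp_lt_one_iff.mpr (by linarith)
  have hr0 : 0 < r := by rw [hr_def]; exact Real.exp_pos _
  have hr2 : r ^ 2 = c := by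
    rw [hr_def, ← Real.exp_nat_mul]
    have : ((2:ℕ):ℝ) * (-mu) = Real.log c := by rw [hmu_def]; push_cast; ring
    rw [this, Real.exp_log hc0]
  have hlogp : Real.log p = Real.log c + ∑ k ∈ R, Real.log (a k) := by
    rw [hp, Real.log_mul hc0.ne' hprod_pos.ne', Real.log_prod]
    intro k hk; exact (ha k hk).2.1.ne'
  have hlam_eq : lam = -Real.log p / 2 := by
    rw [hlam_def, hmu_def, hlogp]
    have : ∑ k ∈ R, v k = -(∑ k ∈ R, Real.log (a k)) / 2 := by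
      rw [← Finset.sum_neg_distrib, Finset.sum_div]
      exact Finset.sum_congr rfl (fun k _ => hvk k)
    rw [this]; ring
  have hs4 : s ^ 4 = p := by
    rw [hs_def, ← Real.exp_nat_mul]
    have : ((4:ℕ):ℝ) * (-(lam / 2)) = Real.log p := by rw [hlam_eq]; push_cast; ring
    rw [this, Real.exp_log hp0]
  have hα2 : ∀ k ∈ R, Real.exp (-(v k)) ^ 2 = a k := by
    intro k hk
    rw [← Real.exp_nat_mul]
    have : ((2:ℕ):ℝ) * (-(v k)) = Real.log (a k) := by rw [hvk k]; push_cast; ring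
    rw [this, Real.exp_log (ha k hk).2.1]
  have hα1 : ∀ k ∈ R, Real.exp (-(v k)) ≤ 1 := by
    intro k hk
    exact Real.exp_le_one_iff.mpr (by linarith [(hv k hk).1])
  -- the sums T, S
  obtain ⟨T, hT⟩ : ∃ T : ℝ, T = ∑ k ∈ R, s ^ 2 * (1 - a k) / (1 - s ^ 2 * a k) := ⟨_, rfl⟩
  obtain ⟨S, hS⟩ : ∃ S : ℝ, S = ∑ k ∈ R, s ^ 2 * (1 - a k) / (1 + s ^ 2 * a k) := ⟨_, rfl⟩
  have hX : ∑ k ∈ R, Real.sinh (v k) / (Real.sinh (lam / 2) * Real.sinh (lam / 2 + v k))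
      = 2 * T / (1 - s ^ 2) := by
    rw [hT, Finset.mul_sum, Finset.sum_div]
    refine Finset.sum_congr rfl (fun k hk => ?_)
    have h := x_term s (Real.exp (-(v k))) (lam / 2) (v k) hs0 hs1 (Real.exp_pos _)
      (hα1 k hk) hs_def.symm rfl
    rw [hα2 k hk] at h
    exact h
  have hZ : ∑ k ∈ R, Real.sinh (v k) / (Real.cosh (lam / 2) * Real.cosh (lam / 2 + v k))
      = 2 * S / (1 + s ^ 2) := by
    rw [hS, Finset.mul_sum, Finset.sum_div]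
    refine Finset.sum_congr rfl (fun k hk => ?_)
    have h := z_term s (Real.exp (-(v k))) (lam / 2) (v k) hs0 (Real.exp_pos _)
      hs_def.symm rfl
    rw [hα2 k hk] at h
    exact h
  -- apply the hyperbolic inequality
  have hG' := hG R v lam mu _ _ hmu hv hlam_def rfl rfl
  obtain ⟨e1, e2, e3, e4, e5, e6⟩ := hyp_values lam mu s r hs_def hr_def
  rw [hX, hZ, e4, e5, e3, e2, e1, e6] at hG'
  exact starW_core R a c p U0 U1 L s r T S hs0 hs1 hr0 hr2 hs4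
    (fun k hk => (ha k hk).2) hT hS hU0 hU1 hL hG'

end Vale.Agent.Helper3.StarW
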